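import Vale.Agent.Lib.P007.Main

open Matrix MeasureTheory Filter Topology NumberField Vale.Agent.Lib.P007

theorem Vale.Agent.Results.P007.SmallElements.result {n : ℕ} (K : ℕ → Type) [∀ i, Field (K i)]
    [∀ i, NumberField (K i)] (hdeg : ∀ i, Module.finrank ℚ (K i) = n)
    (σ : ∀ i, Fin n ≃ (K i →+* ℝ)) (O : ∀ i, Subring (K i)) (hO : ∀ i, IsOrderOf (O i))
    (m : Measure (XSpace n)) [IsProbabilityMeasure m] (hm : ∀ h, m.map (XSpace.act h) = m)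
    (μ : ℕ → Measure (XSpace n)) (hμ : ∀ i, μ i (packetSet (O i) (σ i))ᶜ = 0)
    (hconv : ∀ f : XSpace n → ℝ, Continuous f → HasCompactSupport f →
      Tendsto (fun i => ∫ x, f x ∂(μ i)) atTop (𝓝 (∫ x, f x ∂m)))
    (R : ℝ) :
    ∀ᶠ i in atTop, ∀ α ∈ O i, (∀ j, |σ i j α| ≤ R) → ∃ z : ℤ, α = z :=
  necessary_condition K hdeg σ O hO m hm μ hμ hconv R
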