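import Vale.Agent.Results.P007.CompositeFails
import Vale.Agent.Results.P007.SmallElements

open Matrix MeasureTheory Filter Topology NumberField Vale.Agent.Lib.P007

/-- Equidistribution of packets: it fails for maximal orders in every composite degree `n = a * b`, and in every degree
convergence forces all elements of the orders with uniformly bounded conjugates to be rational integers, eventually. -/
theorem Vale.Agent.Results.P007.A0Conj.result :
    (∀ (n a b : ℕ) (_ : 2 ≤ a) (_ : 2 ≤ b) (_ : n = a * b),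
    ∃ (K : ℕ → Type) (_ : ∀ i, Field (K i)) (_ : ∀ i, NumberField (K i))
      (_ : ∀ i, NumberField.IsTotallyReal (K i)) (σ : ∀ i, Fin n ≃ (K i →+* ℝ)),
      (∀ i, Module.finrank ℚ (K i) = n) ∧
      Tendsto (fun i => |NumberField.discr (K i)|) atTop atTop ∧
      (∀ i, IsOrderOf (maxOrder (K i))) ∧
      (∀ i, (packetSet (maxOrder (K i)) (σ i)).Nonempty) ∧
      ∃ f : XSpace n → ℝ, Continuous f ∧ HasCompactSupport f ∧ (∀ x, 0 ≤ f x) ∧ (∃ x, f x ≠ 0) ∧
        (∀ i, ∀ x ∈ packetSet (maxOrder (K i)) (σ i), f x = 0) ∧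
        ∀ m : Measure (XSpace n), IsProbabilityMeasure m → (∀ h, m.map (XSpace.act h) = m) →
          0 < ∫ x, f x ∂m ∧
          ∀ μ : ℕ → Measure (XSpace n),
            (∀ i, μ i (packetSet (maxOrder (K i)) (σ i))ᶜ = 0) →
            ¬ Tendsto (fun i => ∫ x, f x ∂(μ i)) atTop (𝓝 (∫ x, f x ∂m))) ∧
    (∀ {n : ℕ} (K : ℕ → Type) [∀ i, Field (K i)]
      [∀ i, NumberField (K i)] (_ : ∀ i, Module.finrank ℚ (K i) = n)
      (σ : ∀ i, Fin n ≃ (K i →+* ℝ)) (O : ∀ i, Subring (K i)) (_ : ∀ i, IsOrderOf (O i))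
      (m : Measure (XSpace n)) [IsProbabilityMeasure m] (_ : ∀ h, m.map (XSpace.act h) = m)
      (μ : ℕ → Measure (XSpace n)) (_ : ∀ i, μ i (packetSet (O i) (σ i))ᶜ = 0)
      (_ : ∀ f : XSpace n → ℝ, Continuous f → HasCompactSupport f →
        Tendsto (fun i => ∫ x, f x ∂(μ i)) atTop (𝓝 (∫ x, f x ∂m)))
      (R : ℝ),
      ∀ᶠ i in atTop, ∀ α ∈ O i, (∀ j, |σ i j α| ≤ R) → ∃ z : ℤ, α = z) :=
  ⟨Vale.Agent.Results.P007.CompositeFails.result, @Vale.Agent.Results.P007.SmallElements.result⟩
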